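import Vale.Agent.Lib.P064.FPc
import Vale.Agent.Lib.P064_helper3.Graph

/-!
P034: fractional versus integral expectation thresholds for the property
of containing a copy of `H` (core lemmas, from the spread bounds of the P064 library).
-/

namespace Vale.Agent.Lib.P034b

open Finset Vale.Agent.Lib.P064

variable {n : ℕ}

lemma card_toW (G : SimpleGraph (Fin n)) : (toW G).card = numEdges G := by
  conv_rhs => rw [← ofW_toW G]
  exact (numEdges_ofW _).symm

lemma toW_injective : Function.Injective (toW (n := n)) := by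
  intro G G' h
  rw [← ofW_toW G, ← ofW_toW G', h]

/-- If the uniform measure on the copies of `H` is `κ`-spread, every fractional cover of the copies
costs at least `1` at `κ`. -/
lemma one_le_fracCost_of_spread (H : SimpleGraph (Fin n)) (κ : ℝ)
    (hspread : ∀ F : SimpleGraph (Fin n),
      ((embSet F H).card : ℝ) ≤ κ ^ numEdges F * (n.factorial : ℝ))
    (g : Finset (EX n) → ℝ) (hg0 : ∀ S, 0 ≤ g S)
    (hcov : ∀ σ : Equiv.Perm (Fin n), 1 ≤ ∑ S ∈ (toW (imG σ H)).powerset, g S) :
    1 ≤ ∑ S : Finset (EX n), g S * κ ^ S.card := by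
  classical
  have hfac : (0 : ℝ) < (n.factorial : ℝ) := by exact_mod_cast Nat.factorial_pos n
  have h1 : (n.factorial : ℝ) ≤ ∑ σ : Equiv.Perm (Fin n), ∑ S ∈ (toW (imG σ H)).powerset, g S := by
    calc (n.factorial : ℝ) = ∑ _σ : Equiv.Perm (Fin n), (1 : ℝ) := by
          rw [Finset.sum_const, nsmul_eq_mul, mul_one, Finset.card_univ, Fintype.card_perm,
            Fintype.card_fin]
      _ ≤ _ := Finset.sum_le_sum (fun σ _ => hcov σ)
  have h2 : ∑ σ : Equiv.Perm (Fin n), ∑ S ∈ (toW (imG σ H)).powerset, g S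
      = ∑ S : Finset (EX n), g S * ((embSet (ofW S) H).card : ℝ) := by
    have e1 : ∀ σ : Equiv.Perm (Fin n), ∑ S ∈ (toW (imG σ H)).powerset, g S
        = ∑ S : Finset (EX n), if S ⊆ toW (imG σ H) then g S else 0 := by
      intro σ
      rw [← Finset.sum_filter]
      apply Finset.sum_congr _ (fun _ _ => rfl)
      ext S
      simp
    rw [Finset.sum_congr rfl (fun σ _ => e1 σ), Finset.sum_comm]
    apply Finset.sum_congr rfl
    intro S _
    rw [← Finset.sum_filter, Finset.sum_const, nsmul_eq_mul, card_spread, mul_comm]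
  have h3 : ∑ S : Finset (EX n), g S * ((embSet (ofW S) H).card : ℝ)
      ≤ ∑ S : Finset (EX n), g S * (κ ^ S.card * (n.factorial : ℝ)) := by
    apply Finset.sum_le_sum
    intro S _
    have := hspread (ofW S)
    rw [numEdges_ofW] at this
    exact mul_le_mul_of_nonneg_left this (hg0 S)
  have h4 : ∑ S : Finset (EX n), g S * (κ ^ S.card * (n.factorial : ℝ))
      = (∑ S : Finset (EX n), g S * κ ^ S.card) * (n.factorial : ℝ) := by
    rw [Finset.sum_mul]
    apply Finset.sum_congr rfl
    intro S _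
    ring
  have h5 : 1 * (n.factorial : ℝ) ≤ (∑ S : Finset (EX n), g S * κ ^ S.card) * (n.factorial : ℝ) := by
    rw [one_mul, ← h4]
    exact le_trans h1 (h2 ▸ h3)
  exact le_of_mul_le_mul_right h5 hfac

/-- The copies of a subgraph `F'` of `H` cover the copies of `H`, at cost `E N(G(n,q),F')`. -/
lemma exists_cover_of_subgraph (H F' : SimpleGraph (Fin n)) (hF : F' ≤ H) (q : ℝ) :
    ∃ G : Finset (Finset (EX n)),
      (∀ (H' : SimpleGraph (Fin n)), Nonempty (H' ≃g H) → ∃ S ∈ G, S ⊆ toW H') ∧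
      ∑ S ∈ G, q ^ S.card = expCopies q F' := by
  classical
  refine ⟨(copiesF ⊤ F').image toW, ?_, ?_⟩
  · rintro H' ⟨ψ⟩
    refine ⟨toW (F'.comap ψ.toEquiv), ?_, ?_⟩
    · apply Finset.mem_image_of_mem
      rw [mem_copiesF]
      exact ⟨le_top, ⟨SimpleGraph.Iso.comap ψ.toEquiv F'⟩⟩
    · rw [toW_subset_iff]
      intro a b hab
      have h1 : F'.Adj (ψ a) (ψ b) := hab
      exact ψ.map_adj_iff.mp (hF h1)
  · rw [Finset.sum_image (fun a _ b _ h => toW_injective h), expCopies_eq, copyCount_eq]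
    rw [Finset.sum_congr rfl (g := fun _ => q ^ numEdges F')]
    · rw [Finset.sum_const, nsmul_eq_mul]
    · intro F'' hF''
      obtain ⟨_, ⟨φ⟩⟩ := mem_copiesF.mp hF''
      rw [card_toW, numEdges_iso φ]

end Vale.Agent.Lib.P034b
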